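import Vale.Agent.Lib.P166.Defs

/-!
Deterministic bounds for the pressure, valid for every orthogonal matrix.
-/

namespace Vale.Agent.Lib.P166

open Matrix Finset

theorem spin_sq {N : ℕ} (s : Fin N → Bool) (i : Fin N) : spin s i * spin s i = 1 := by
  unfold spin
  split_ifs <;> norm_num

theorem card_config (N : ℕ) : (Finset.univ : Finset (Fin N → Bool)).card = 2 ^ N := by
  rw [Finset.card_univ, Fintype.card_fun, Fintype.card_bool, Fintype.card_fin]

/-- Flipping the coordinate `i` of a configuration. -/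
def flip {N : ℕ} (i : Fin N) (s : Fin N → Bool) : Fin N → Bool :=
  Function.update s i (!(s i))

theorem flip_flip {N : ℕ} (i : Fin N) (s : Fin N → Bool) : flip i (flip i s) = s := by
  unfold flip
  simp

theorem spin_flip_self {N : ℕ} (i : Fin N) (s : Fin N → Bool) :
    spin (flip i s) i = - spin s i := by
  unfold spin flip
  cases h : s i <;> simp

theorem spin_flip_other {N : ℕ} {i j : Fin N} (h : j ≠ i) (s : Fin N → Bool) :
    spin (flip i s) j = spin s j := by
  unfold spin flip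
  rw [Function.update_of_ne h]

theorem sum_spin_mul {N : ℕ} (i j : Fin N) :
    ∑ s : Fin N → Bool, spin s i * spin s j = if i = j then (2 : ℝ) ^ N else 0 := by
  split_ifs with h
  · subst h
    rw [Finset.sum_congr rfl (fun s _ => spin_sq s i)]
    rw [Finset.sum_const, card_config]
    simp
  · have hinv : Function.Involutive (flip i : (Fin N → Bool) → (Fin N → Bool)) := flip_flip i
    have h1 : ∑ s : Fin N → Bool, spin s i * spin s j =
        ∑ s : Fin N → Bool, spin (flip i s) i * spin (flip i s) j :=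
      (Equiv.sum_comp hinv.toPerm (fun s => spin s i * spin s j)).symm
    have h2 : ∑ s : Fin N → Bool, spin (flip i s) i * spin (flip i s) j =
        - ∑ s : Fin N → Bool, spin s i * spin s j := by
      rw [← Finset.sum_neg_distrib]
      apply Finset.sum_congr rfl
      intro s _
      rw [spin_flip_self, spin_flip_other (fun hji => h hji.symm)]
      ring
    linarith

/-- The average of the quadratic form over all spin vectors is the trace. -/
theorem sum_quad {N : ℕ} (J : Matrix (Fin N) (Fin N) ℝ) :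
    ∑ s : Fin N → Bool, (spin s ⬝ᵥ J *ᵥ spin s) = (2 : ℝ) ^ N * J.trace := by
  have h1 : ∀ s : Fin N → Bool, (spin s ⬝ᵥ J *ᵥ spin s) =
      ∑ i, ∑ j, J i j * (spin s i * spin s j) := by
    intro s
    unfold dotProduct mulVec dotProduct
    apply Finset.sum_congr rfl
    intro i _
    rw [Finset.mul_sum]
    apply Finset.sum_congr rfl
    intro j _
    ring
  rw [Finset.sum_congr rfl (fun s _ => h1 s), Finset.sum_comm]
  have h2 : ∀ i : Fin N, ∑ s : Fin N → Bool, ∑ j, J i j * (spin s i * spin s j) =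
      (2 : ℝ) ^ N * J i i := by
    intro i
    rw [Finset.sum_comm]
    have h3 : ∀ j : Fin N, ∑ s : Fin N → Bool, J i j * (spin s i * spin s j) =
        J i j * (if i = j then (2 : ℝ) ^ N else 0) := by
      intro j
      rw [← Finset.mul_sum, sum_spin_mul]
    rw [Finset.sum_congr rfl (fun j _ => h3 j)]
    simp [mul_comm]
  rw [Finset.sum_congr rfl (fun i _ => h2 i), ← Finset.mul_sum]
  rfl

theorem orth_mul_transpose {N : ℕ} {U : Matrix (Fin N) (Fin N) ℝ}
    (hU : U ∈ Matrix.orthogonalGroup (Fin N) ℝ) : U * Uᵀ = 1 := by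
  have := (Matrix.mem_orthogonalGroup_iff (Fin N) ℝ).1 hU
  simpa using this

theorem orth_transpose_mul {N : ℕ} {U : Matrix (Fin N) (Fin N) ℝ}
    (hU : U ∈ Matrix.orthogonalGroup (Fin N) ℝ) : Uᵀ * U = 1 := by
  have := (Matrix.mem_orthogonalGroup_iff' (Fin N) ℝ).1 hU
  simpa using this

theorem trace_coupling {N : ℕ} {U : Matrix (Fin N) (Fin N) ℝ}
    (hU : U ∈ Matrix.orthogonalGroup (Fin N) ℝ) (lam : Fin N → ℝ) :
    (coupling U lam).trace = ∑ i, lam i := by
  unfold coupling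
  rw [Matrix.trace_mul_cycle, orth_mul_transpose hU, Matrix.one_mul, Matrix.trace_diagonal]

/-- The quadratic form in the eigenbasis. -/
theorem quad_coupling {N : ℕ} (U : Matrix (Fin N) (Fin N) ℝ) (lam : Fin N → ℝ)
    (v : Fin N → ℝ) :
    (v ⬝ᵥ coupling U lam *ᵥ v) = ∑ i, lam i * ((U *ᵥ v) i * (U *ᵥ v) i) := by
  unfold coupling
  rw [← Matrix.mulVec_mulVec, ← Matrix.mulVec_mulVec, Matrix.dotProduct_mulVec,
    Matrix.vecMul_transpose]
  unfold dotProduct
  apply Finset.sum_congr rfl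
  intro i _
  rw [Matrix.mulVec_diagonal]
  ring

theorem norm_mulVec {N : ℕ} {U : Matrix (Fin N) (Fin N) ℝ}
    (hU : U ∈ Matrix.orthogonalGroup (Fin N) ℝ) (v : Fin N → ℝ) :
    ∑ i, (U *ᵥ v) i * (U *ᵥ v) i = ∑ i, v i * v i := by
  have h1 : ∑ i, (U *ᵥ v) i * (U *ᵥ v) i = (U *ᵥ v) ⬝ᵥ (U *ᵥ v) := rfl
  have h2 : ∑ i, v i * v i = v ⬝ᵥ v := rfl
  rw [h1, h2]
  calc (U *ᵥ v) ⬝ᵥ (U *ᵥ v) = (v ᵥ* Uᵀ) ⬝ᵥ (U *ᵥ v) := by rw [Matrix.vecMul_transpose]
    _ = v ⬝ᵥ (Uᵀ *ᵥ (U *ᵥ v)) := (Matrix.dotProduct_mulVec v Uᵀ (U *ᵥ v)).symm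
    _ = v ⬝ᵥ ((Uᵀ * U) *ᵥ v) := by rw [Matrix.mulVec_mulVec]
    _ = v ⬝ᵥ v := by rw [orth_transpose_mul hU, Matrix.one_mulVec]

theorem quad_le {N : ℕ} {U : Matrix (Fin N) (Fin N) ℝ}
    (hU : U ∈ Matrix.orthogonalGroup (Fin N) ℝ) (lam : Fin N → ℝ) (M : ℝ)
    (hM : ∀ i, lam i ≤ M) (s : Fin N → Bool) :
    (spin s ⬝ᵥ coupling U lam *ᵥ spin s) ≤ M * N := by
  rw [quad_coupling]
  have h1 : ∑ i, lam i * ((U *ᵥ spin s) i * (U *ᵥ spin s) i) ≤
      ∑ i, M * ((U *ᵥ spin s) i * (U *ᵥ spin s) i) := by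
    apply Finset.sum_le_sum
    intro i _
    exact mul_le_mul_of_nonneg_right (hM i) (mul_self_nonneg _)
  have h2 : ∑ i, M * ((U *ᵥ spin s) i * (U *ᵥ spin s) i) = M * N := by
    rw [← Finset.mul_sum, norm_mulVec hU, Finset.sum_congr rfl (fun i _ => spin_sq s i)]
    simp
  linarith

theorem pressure_le {N : ℕ} (hN : 0 < N) {U : Matrix (Fin N) (Fin N) ℝ}
    (hU : U ∈ Matrix.orthogonalGroup (Fin N) ℝ) (lam : Fin N → ℝ) (M : ℝ)
    (hM : ∀ i, lam i ≤ M) {β : ℝ} (hβ : 0 ≤ β) :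
    pressure (coupling U lam) β ≤ β / 2 * M := by
  unfold pressure
  have hNpos : (0 : ℝ) < N := by exact_mod_cast hN
  have h2pos : (0 : ℝ) < 2 ^ N := by positivity
  have hsum : ∑ s : Fin N → Bool, Real.exp (β / 2 * (spin s ⬝ᵥ coupling U lam *ᵥ spin s)) ≤
      (2 : ℝ) ^ N * Real.exp (β / 2 * (M * N)) := by
    calc ∑ s : Fin N → Bool, Real.exp (β / 2 * (spin s ⬝ᵥ coupling U lam *ᵥ spin s))
        ≤ ∑ _s : Fin N → Bool, Real.exp (β / 2 * (M * N)) := by
          apply Finset.sum_le_sum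
          intro s _
          apply Real.exp_le_exp.2
          exact mul_le_mul_of_nonneg_left (quad_le hU lam M hM s) (by linarith)
      _ = (2 : ℝ) ^ N * Real.exp (β / 2 * (M * N)) := by
          rw [Finset.sum_const, card_config]
          simp
  have hpos : 0 < (1 / (2 : ℝ) ^ N) *
      ∑ s : Fin N → Bool, Real.exp (β / 2 * (spin s ⬝ᵥ coupling U lam *ᵥ spin s)) := by
    apply mul_pos (by positivity)
    apply Finset.sum_pos
    · intro s _
      exact Real.exp_pos _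
    · exact Finset.univ_nonempty
  have hle : (1 / (2 : ℝ) ^ N) *
      ∑ s : Fin N → Bool, Real.exp (β / 2 * (spin s ⬝ᵥ coupling U lam *ᵥ spin s)) ≤
      Real.exp (β / 2 * (M * N)) := by
    calc _ ≤ (1 / (2 : ℝ) ^ N) * ((2 : ℝ) ^ N * Real.exp (β / 2 * (M * N))) :=
          mul_le_mul_of_nonneg_left hsum (by positivity)
      _ = Real.exp (β / 2 * (M * N)) := by
          field_simp
  have hlog := Real.log_le_log hpos hle
  rw [Real.log_exp] at hlog
  calc (1 / (N : ℝ)) * Real.log ((1 / (2 : ℝ) ^ N) *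
        ∑ s : Fin N → Bool, Real.exp (β / 2 * (spin s ⬝ᵥ coupling U lam *ᵥ spin s)))
      ≤ (1 / (N : ℝ)) * (β / 2 * (M * N)) :=
        mul_le_mul_of_nonneg_left hlog (by positivity)
    _ = β / 2 * M := by
        field_simp

theorem le_pressure {N : ℕ} (hN : 0 < N) {U : Matrix (Fin N) (Fin N) ℝ}
    (hU : U ∈ Matrix.orthogonalGroup (Fin N) ℝ) (lam : Fin N → ℝ) (β : ℝ) :
    β / 2 * ((∑ i, lam i) / N) ≤ pressure (coupling U lam) β := by
  unfold pressure
  have hNpos : (0 : ℝ) < N := by exact_mod_cast hN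
  have h2pos : (0 : ℝ) < 2 ^ N := by positivity
  have hjensen := convexOn_exp.map_sum_le
    (t := (Finset.univ : Finset (Fin N → Bool))) (w := fun _ => 1 / (2 : ℝ) ^ N)
    (p := fun s => β / 2 * (spin s ⬝ᵥ coupling U lam *ᵥ spin s))
    (fun _ _ => by positivity)
    (by rw [Finset.sum_const, card_config]; simp)
    (fun _ _ => Set.mem_univ _)
  simp only [smul_eq_mul] at hjensen
  rw [← Finset.mul_sum, ← Finset.mul_sum, ← Finset.mul_sum, sum_quad, trace_coupling hU]
    at hjensen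
  have hexp : 1 / (2 : ℝ) ^ N * (β / 2 * ((2 : ℝ) ^ N * ∑ i, lam i)) = β / 2 * ∑ i, lam i := by
    field_simp
  rw [hexp] at hjensen
  have hlog := Real.log_le_log (Real.exp_pos _) hjensen
  rw [Real.log_exp] at hlog
  calc β / 2 * ((∑ i, lam i) / N) = (1 / (N : ℝ)) * (β / 2 * ∑ i, lam i) := by
        field_simp
    _ ≤ _ := mul_le_mul_of_nonneg_left hlog (by positivity)

end Vale.Agent.Lib.P166
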