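import Mathlib

/-!
Definitions for problem P166: the pressure of an Ising spin system with coupling matrix `J`.
-/

namespace Vale.Agent.Lib.P166

open Matrix

/-- The spin vector in `{-1, 1}^N` attached to a Boolean configuration. -/
def spin {N : ℕ} (s : Fin N → Bool) : Fin N → ℝ := fun i => if s i then 1 else -1

/-- The pressure `P_N(β) = (1/N) log (2^{-N} ∑_σ exp((β/2) σᵀ J σ))`, the sum being over all
spin vectors `σ ∈ {-1, 1}^N`. -/
noncomputable def pressure {N : ℕ} (J : Matrix (Fin N) (Fin N) ℝ) (β : ℝ) : ℝ :=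
  (1 / (N : ℝ)) * Real.log ((1 / (2 : ℝ) ^ N) *
    ∑ s : Fin N → Bool, Real.exp (β / 2 * (spin s ⬝ᵥ J *ᵥ spin s)))

/-- The coupling matrix `Uᵀ Λ U` with `Λ = diag(lam)`. -/
def coupling {N : ℕ} (U : Matrix (Fin N) (Fin N) ℝ) (lam : Fin N → ℝ) :
    Matrix (Fin N) (Fin N) ℝ :=
  Uᵀ * Matrix.diagonal lam * U

end Vale.Agent.Lib.P166
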