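import Vale.Agent.Lib.P166.Bounds

/-!
The degenerate case of a point mass: if all eigenvalues converge uniformly to `c`, the pressure
converges to `β c / 2` for every choice of orthogonal matrices.
-/

namespace Vale.Agent.Lib.P166

open Matrix Finset

theorem pressure_tendsto_of_uniform (c β : ℝ) (hβ : 0 ≤ β)
    (lam : (N : ℕ) → Fin N → ℝ) (U : (N : ℕ) → Matrix (Fin N) (Fin N) ℝ)
    (hU : ∀ N, U N ∈ Matrix.orthogonalGroup (Fin N) ℝ)
    (hlam : ∀ ε > 0, ∃ N₀ : ℕ, ∀ N ≥ N₀, ∀ i, |lam N i - c| ≤ ε) :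
    Filter.Tendsto (fun N => pressure (coupling (U N) (lam N)) β) Filter.atTop
      (nhds (β / 2 * c)) := by
  rw [Metric.tendsto_atTop]
  intro ε hε
  have hδ : 0 < ε / (β + 1) := by positivity
  obtain ⟨N₀, hN₀⟩ := hlam (ε / (β + 1)) hδ
  refine ⟨max N₀ 1, fun N hN => ?_⟩
  have hN1 : 0 < N := lt_of_lt_of_le Nat.one_pos ((le_max_right N₀ 1).trans hN)
  have hNpos : (0 : ℝ) < N := by exact_mod_cast hN1
  have hb : ∀ i, |lam N i - c| ≤ ε / (β + 1) := hN₀ N ((le_max_left N₀ 1).trans hN)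
  have hup : ∀ i, lam N i ≤ c + ε / (β + 1) := by
    intro i
    have := (abs_le.1 (hb i)).2
    linarith
  have hlow : ∀ i, c - ε / (β + 1) ≤ lam N i := by
    intro i
    have := (abs_le.1 (hb i)).1
    linarith
  have h1 := pressure_le hN1 (hU N) (lam N) (c + ε / (β + 1)) hup hβ
  have h2 := le_pressure hN1 (hU N) (lam N) β
  have hmean : c - ε / (β + 1) ≤ (∑ i, lam N i) / N := by
    rw [le_div_iff₀ hNpos]
    calc (c - ε / (β + 1)) * N = ∑ _i : Fin N, (c - ε / (β + 1)) := by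
          rw [Finset.sum_const, Finset.card_univ, Fintype.card_fin]
          simp [mul_comm]
      _ ≤ ∑ i, lam N i := Finset.sum_le_sum (fun i _ => hlow i)
  have h3 : β / 2 * (c - ε / (β + 1)) ≤ pressure (coupling (U N) (lam N)) β :=
    (mul_le_mul_of_nonneg_left hmean (by linarith)).trans h2
  have hsmall : β / 2 * (ε / (β + 1)) < ε := by
    have hb1 : (0 : ℝ) < β + 1 := by linarith
    rw [mul_div_assoc', div_lt_iff₀ hb1]
    nlinarith
  rw [Real.dist_eq, abs_lt]
  constructor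
  · nlinarith
  · nlinarith

end Vale.Agent.Lib.P166
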