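import Vale.Agent.Lib.P166.Bounds

/-!
Stability of the pressure under uniformly small changes of the eigenvalues, up to a relabelling
of the eigenvalues (which is a left multiplication of the orthogonal matrix by a permutation
matrix).
-/

namespace Vale.Agent.Lib.P166

open Matrix Finset

theorem pressure_le_add {N : ℕ} (hN : 0 < N) (J J' : Matrix (Fin N) (Fin N) ℝ) (c : ℝ)
    {β : ℝ} (hβ : 0 ≤ β)
    (h : ∀ s : Fin N → Bool, (spin s ⬝ᵥ J *ᵥ spin s) ≤ (spin s ⬝ᵥ J' *ᵥ spin s) + c * N) :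
    pressure J β ≤ pressure J' β + β / 2 * c := by
  unfold pressure
  have hNpos : (0 : ℝ) < N := by exact_mod_cast hN
  have hpos : ∀ K : Matrix (Fin N) (Fin N) ℝ, 0 < (1 / (2 : ℝ) ^ N) *
      ∑ s : Fin N → Bool, Real.exp (β / 2 * (spin s ⬝ᵥ K *ᵥ spin s)) := by
    intro K
    apply mul_pos (by positivity)
    apply Finset.sum_pos
    · intro s _
      exact Real.exp_pos _
    · exact Finset.univ_nonempty
  have hsum : ∑ s : Fin N → Bool, Real.exp (β / 2 * (spin s ⬝ᵥ J *ᵥ spin s)) ≤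
      Real.exp (β / 2 * (c * N)) *
        ∑ s : Fin N → Bool, Real.exp (β / 2 * (spin s ⬝ᵥ J' *ᵥ spin s)) := by
    rw [Finset.mul_sum]
    apply Finset.sum_le_sum
    intro s _
    rw [← Real.exp_add]
    apply Real.exp_le_exp.2
    have := mul_le_mul_of_nonneg_left (h s) (by linarith : (0 : ℝ) ≤ β / 2)
    linarith
  have hle : (1 / (2 : ℝ) ^ N) *
      ∑ s : Fin N → Bool, Real.exp (β / 2 * (spin s ⬝ᵥ J *ᵥ spin s)) ≤
      Real.exp (β / 2 * (c * N)) * ((1 / (2 : ℝ) ^ N) *
        ∑ s : Fin N → Bool, Real.exp (β / 2 * (spin s ⬝ᵥ J' *ᵥ spin s))) := by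
    calc _ ≤ (1 / (2 : ℝ) ^ N) * (Real.exp (β / 2 * (c * N)) *
          ∑ s : Fin N → Bool, Real.exp (β / 2 * (spin s ⬝ᵥ J' *ᵥ spin s))) :=
          mul_le_mul_of_nonneg_left hsum (by positivity)
      _ = _ := by ring
  have hlog := Real.log_le_log (hpos J) hle
  rw [Real.log_mul (Real.exp_pos _).ne' (hpos J').ne', Real.log_exp] at hlog
  calc (1 / (N : ℝ)) * Real.log ((1 / (2 : ℝ) ^ N) *
        ∑ s : Fin N → Bool, Real.exp (β / 2 * (spin s ⬝ᵥ J *ᵥ spin s)))
      ≤ (1 / (N : ℝ)) * (β / 2 * (c * N) + Real.log ((1 / (2 : ℝ) ^ N) *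
        ∑ s : Fin N → Bool, Real.exp (β / 2 * (spin s ⬝ᵥ J' *ᵥ spin s)))) :=
        mul_le_mul_of_nonneg_left hlog (by positivity)
    _ = _ := by
        field_simp
        ring

theorem quad_diff_le {N : ℕ} {U : Matrix (Fin N) (Fin N) ℝ}
    (hU : U ∈ Matrix.orthogonalGroup (Fin N) ℝ) (lam lam' : Fin N → ℝ) (δ : ℝ)
    (h : ∀ i, lam i ≤ lam' i + δ) (s : Fin N → Bool) :
    (spin s ⬝ᵥ coupling U lam *ᵥ spin s) ≤ (spin s ⬝ᵥ coupling U lam' *ᵥ spin s) + δ * N := by
  rw [quad_coupling, quad_coupling]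
  have h1 : ∑ i, lam i * ((U *ᵥ spin s) i * (U *ᵥ spin s) i) ≤
      ∑ i, (lam' i + δ) * ((U *ᵥ spin s) i * (U *ᵥ spin s) i) := by
    apply Finset.sum_le_sum
    intro i _
    exact mul_le_mul_of_nonneg_right (h i) (mul_self_nonneg _)
  have h2 : ∑ i, (lam' i + δ) * ((U *ᵥ spin s) i * (U *ᵥ spin s) i) =
      ∑ i, lam' i * ((U *ᵥ spin s) i * (U *ᵥ spin s) i) + δ * N := by
    have h3 : ∑ i, (U *ᵥ spin s) i * (U *ᵥ spin s) i = N := by
      rw [norm_mulVec hU, Finset.sum_congr rfl (fun i _ => spin_sq s i)]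
      simp
    rw [← h3, Finset.mul_sum, ← Finset.sum_add_distrib]
    apply Finset.sum_congr rfl
    intro i _
    ring
  linarith

/-- Same orthogonal matrix, uniformly close eigenvalues. -/
theorem pressure_lipschitz {N : ℕ} (hN : 0 < N) {U : Matrix (Fin N) (Fin N) ℝ}
    (hU : U ∈ Matrix.orthogonalGroup (Fin N) ℝ) (lam lam' : Fin N → ℝ) (δ : ℝ) {β : ℝ}
    (hβ : 0 ≤ β) (h : ∀ i, |lam i - lam' i| ≤ δ) :
    |pressure (coupling U lam) β - pressure (coupling U lam') β| ≤ β / 2 * δ := by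
  have h1 := pressure_le_add hN (coupling U lam) (coupling U lam') δ hβ
    (quad_diff_le hU lam lam' δ (fun i => by have := (abs_le.1 (h i)).2; linarith))
  have h2 := pressure_le_add hN (coupling U lam') (coupling U lam) δ hβ
    (quad_diff_le hU lam' lam δ (fun i => by have := (abs_le.1 (h i)).1; linarith))
  rw [abs_le]
  constructor <;> linarith

/-- The permutation matrix with entries `1` at the positions `(π j, j)`. -/
def permMat {N : ℕ} (π : Equiv.Perm (Fin N)) : Matrix (Fin N) (Fin N) ℝ :=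
  Matrix.of (fun i j => if i = π j then (1 : ℝ) else 0)

theorem permMat_transpose_mul {N : ℕ} (π : Equiv.Perm (Fin N)) :
    (permMat π)ᵀ * permMat π = 1 := by
  ext j k
  rw [Matrix.mul_apply]
  simp only [permMat, Matrix.transpose_apply, Matrix.of_apply]
  rw [Finset.sum_eq_single (π j)]
  · by_cases hjk : j = k
    · subst hjk
      simp
    · have : π j ≠ π k := fun h => hjk (π.injective h)
      simp [this, hjk]
  · intro i _ hi
    simp [hi]
  · intro h
    exact absurd (Finset.mem_univ _) h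

theorem permMat_mem {N : ℕ} (π : Equiv.Perm (Fin N)) :
    permMat π ∈ Matrix.orthogonalGroup (Fin N) ℝ := by
  rw [Matrix.mem_orthogonalGroup_iff']
  simpa using permMat_transpose_mul π

theorem permMat_conj {N : ℕ} (π : Equiv.Perm (Fin N)) (lam : Fin N → ℝ) :
    (permMat π)ᵀ * Matrix.diagonal lam * permMat π = Matrix.diagonal (fun j => lam (π j)) := by
  ext j k
  rw [Matrix.mul_apply]
  simp only [permMat, Matrix.transpose_apply, Matrix.of_apply, Matrix.mul_apply,
    Matrix.diagonal_apply]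
  rw [Finset.sum_eq_single (π j)]
  · rw [Finset.sum_eq_single (π j)]
    · by_cases hjk : j = k
      · subst hjk
        simp
      · have : π j ≠ π k := fun h => hjk (π.injective h)
        simp [this, hjk]
    · intro i _ hi
      simp [hi]
    · intro h
      exact absurd (Finset.mem_univ _) h
  · intro i _ hi
    have : ∑ l, (if l = π j then (1 : ℝ) else 0) * (if l = i then lam l else 0) = 0 := by
      apply Finset.sum_eq_zero
      intro l _
      by_cases hl : l = π j
      · have : l ≠ i := fun h => hi (h.symm.trans hl)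
        simp [this]
      · simp [hl]
    rw [this, zero_mul]
  · intro h
    exact absurd (Finset.mem_univ _) h

theorem coupling_permMat {N : ℕ} (π : Equiv.Perm (Fin N)) (U : Matrix (Fin N) (Fin N) ℝ)
    (lam : Fin N → ℝ) :
    coupling (permMat π * U) lam = coupling U (fun j => lam (π j)) := by
  unfold coupling
  rw [Matrix.transpose_mul, ← permMat_conj π lam]
  simp only [Matrix.mul_assoc]

/-- Stability up to relabelling. -/
theorem pressure_stability {N : ℕ} (hN : 0 < N) (lam lam' : Fin N → ℝ)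
    (π : Equiv.Perm (Fin N)) (δ : ℝ) {β : ℝ} (hβ : 0 ≤ β)
    (h : ∀ i, |lam i - lam' (π i)| ≤ δ) :
    ∃ Q ∈ Matrix.orthogonalGroup (Fin N) ℝ, ∀ U ∈ Matrix.orthogonalGroup (Fin N) ℝ,
      |pressure (coupling U lam) β - pressure (coupling (Q * U) lam') β| ≤ β / 2 * δ := by
  refine ⟨permMat π, permMat_mem π, fun U hU => ?_⟩
  rw [coupling_permMat]
  exact pressure_lipschitz hN hU lam (fun j => lam' (π j)) δ hβ h

end Vale.Agent.Lib.P166
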